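import Vale.Agent.IsingUniv.MainPointwise

/-!
Question Q1 fails, by a boundary effect: for the distance-three ferromagnetic pair potential and
every `J, lam > 0` no data exist.  The only hypothesis is the theorem of Chelkak, Hongler and
Izyurov on the critical nearest-neighbour magnetization at the centre of the square with plus
boundary condition.
-/

namespace Vale.Agent.Results.P144.BoundaryDisproof

open Vale.Agent.IsingUniv

theorem result
    (h : ∃ c ≠ 0, Converges (critical square plus) (fun _ : Fin 1 => 0) Fin.elim0 Fin.elim0 c) :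
    ¬ Asked ∧ ∃ V, IsPotential V ∧ ∀ J > 0, ∀ lam > 0, ¬ Admits J V lam := by
  have key : ∀ J > 0, ∀ lam > 0, ¬ Admits J V3 lam := fun J hJ lam hl =>
    no_data_pointwise h hJ hl
  refine ⟨fun hQ => ?_, V3, isPotential_V3, key⟩
  obtain ⟨r, hr, hA⟩ := hQ 1 one_pos V3 isPotential_V3
  exact key 1 one_pos (r / 2) (half_pos hr) (hA (r / 2) (by
    rw [abs_of_pos (half_pos hr)]; linarith))

end Vale.Agent.Results.P144.BoundaryDisproof
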