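import Vale.Agent.IsingUniv.MainUniform

/-!
Question Q1 fails, by a boundary effect: for the distance-three ferromagnetic pair potential and
every `J, lam > 0` no data exist.  The hypotheses are the published facts on the critical
nearest-neighbour model that enter: convergence of all mixed correlations in the square with plus
boundary condition and in the diamond with one free side (which is what the alternating boundary
spins produce, their contributions cancelling exactly), that the one-point function is bounded
below in the square, and that it takes arbitrarily small values near the free side.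
-/

namespace Vale.Agent.Results.P144.SideDisproof

open Vale.Agent.IsingUniv

theorem result
    (h₁ : HasLimits square (critical square plus))
    (h₂ : ∃ c₀ > 0, ∀ x ∈ square, ∀ c,
      Converges (critical square plus) (fun _ : Fin 1 => x) Fin.elim0 Fin.elim0 c → c₀ ≤ c)
    (h₃ : HasLimits diamond (critical diamond side))
    (h₄ : ∀ ε > 0, ∃ x ∈ diamond, ∃ c < ε,
      Converges (critical diamond side) (fun _ : Fin 1 => x) Fin.elim0 Fin.elim0 c) :
    ¬ Question ∧
      ∃ V, IsPotential V ∧ ∀ J > 0, ∀ lam > 0, ¬ HasData J V lam := by
  have key : ∀ J > 0, ∀ lam > 0, ¬ HasData J V3 lam := fun J hJ lam hl =>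
    no_data h₁ h₂ h₃ h₄ hJ hl
  refine ⟨fun hQ => ?_, V3, isPotential_V3, key⟩
  obtain ⟨r, hr, h⟩ := hQ 1 one_pos V3 isPotential_V3
  exact key 1 one_pos (r / 2) (half_pos hr) (h (r / 2) (by
    rw [abs_of_pos (half_pos hr)]; linarith))

end Vale.Agent.Results.P144.SideDisproof
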